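import Vale.Agent.Lib.P062.Maker

/-!
# A proof-tree checker for Maker wins in the Snaky game

Positions are stored as bit masks over the window `[-16, 16) × [-16, 16)`: the cell `(x, y)` has
index `(x + 16) * 32 + (y + 16)`.  A node of a proof tree, checked at a mask `M` of Maker cells,
yields a zone mask `Z`; its meaning is that Maker, to move and owning the cells of `M`, wins
against every set of Breaker cells that is disjoint from `Z`.
-/

namespace Vale.Agent.Lib.P062

/-- Proof trees.  `w1`: Maker completes a copy.  `w2`: Maker makes two threats.  `f`: Maker makes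
one threat and Breaker must answer it.  `q`: a quiet Maker move followed by a family of subtrees
(the subtree `d` and the chain `alts` built from `alt` and `nil`) such that every Breaker answer
lies outside the zone of one of them.  `sref`: a reference to an earlier stored lemma. -/
inductive PT : Type
  | w1 (a o t : ℕ)
  | w2 (a o1 t1 c1 o2 t2 c2 : ℕ)
  | f (a o t c : ℕ) (k : PT)
  | q (a : ℕ) (d : PT) (alts : PT)
  | nil
  | alt (t : PT) (rest : PT)
  | sref (i : ℕ)

/-- Binary tries of stored lemmas `(M, Z)`. -/
inductive Tr : Type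
  | leaf
  | node (l r : Tr)
  | val (m z : ℕ)

/-- Results of the checker: failure, or a zone mask and an intersection mask. -/
inductive Res : Type
  | fail
  | ok (z i : ℕ)

/-- Look up the index `i` (lowest bit first). -/
def Tr.get : Tr → ℕ → Tr
  | .node l r, i =>
      bif Nat.beq (Nat.land i 1) 0 then Tr.get l (Nat.shiftRight i 1)
      else Tr.get r (Nat.shiftRight i 1)
  | t, _ => t

/-- The mask of the single cell index `i`. -/
def cbit (i : ℕ) : ℕ := Nat.shiftLeft 1 i

/-- The mask of the whole window. -/
def fullMask : ℕ := 2 ^ 1024 - 1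

/-- The masks of the eight orientations of Snaky with lower-left corner at index `0`. -/
def baseMask : ℕ → ℕ
  | 0 => 1 + 2 ^ 32 + 2 ^ 64 + 2 ^ 96 + 2 ^ 97 + 2 ^ 129
  | 1 => 2 ^ 128 + 2 ^ 96 + 2 ^ 64 + 2 ^ 32 + 2 ^ 33 + 2 ^ 1
  | 2 => 2 ^ 1 + 2 ^ 33 + 2 ^ 65 + 2 ^ 97 + 2 ^ 96 + 2 ^ 128
  | 3 => 2 ^ 129 + 2 ^ 97 + 2 ^ 65 + 2 ^ 33 + 2 ^ 32 + 1
  | 4 => 1 + 2 ^ 1 + 2 ^ 2 + 2 ^ 3 + 2 ^ 35 + 2 ^ 36
  | 5 => 2 ^ 32 + 2 ^ 33 + 2 ^ 34 + 2 ^ 35 + 2 ^ 3 + 2 ^ 4
  | 6 => 2 ^ 4 + 2 ^ 3 + 2 ^ 2 + 2 ^ 1 + 2 ^ 33 + 2 ^ 32
  | _ => 2 ^ 36 + 2 ^ 35 + 2 ^ 34 + 2 ^ 33 + 2 ^ 1 + 1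

/-- The mask of the copy with orientation `o` and lower-left corner index `t`. -/
def copyMask (o t : ℕ) : ℕ := Nat.shiftLeft (baseMask o) t

/-- The copy with orientation `o` and corner `t` lies inside the window. -/
def copyOK (o t : ℕ) : Bool :=
  bif Nat.ble o 3 then Nat.ble (Nat.mod t 32) 30 && Nat.ble (Nat.div t 32) 27
  else Nat.ble o 7 && Nat.ble (Nat.mod t 32) 27 && Nat.ble (Nat.div t 32) 30

/-- The checker.  The Boolean is `true` for chains of alternatives and `false` for nodes; `E` is
the store of lemmas, of which only those with index below `bd` may be used. -/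
def chk (E : Tr) (bd : ℕ) : PT → Bool → ℕ → Res
  | .w1 a o t, false, M =>
      bif copyOK o t && Nat.ble a 1023
          && Nat.beq (Nat.land (copyMask o t) (Nat.lor M (cbit a))) (copyMask o t)
          && Nat.beq (Nat.land M (cbit a)) 0
      then .ok (Nat.lor (copyMask o t) (cbit a)) 0 else .fail
  | .w2 a o1 t1 c1 o2 t2 c2, false, M =>
      bif copyOK o1 t1 && copyOK o2 t2 && Nat.ble a 1023 && Nat.ble c1 1023 && Nat.ble c2 1023
          && Nat.beq (Nat.land M (cbit a)) 0
          && Nat.beq (Nat.xor (copyMask o1 t1) (Nat.land (copyMask o1 t1) (Nat.lor M (cbit a))))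
            (cbit c1)
          && Nat.beq (Nat.xor (copyMask o2 t2) (Nat.land (copyMask o2 t2) (Nat.lor M (cbit a))))
            (cbit c2)
          && !(Nat.beq c1 c2)
      then .ok (Nat.lor (Nat.lor (copyMask o1 t1) (copyMask o2 t2)) (cbit a)) 0 else .fail
  | .f a o t c k, false, M =>
      bif copyOK o t && Nat.ble a 1023 && Nat.ble c 1023 && Nat.beq (Nat.land M (cbit a)) 0
          && Nat.beq (Nat.xor (copyMask o t) (Nat.land (copyMask o t) (Nat.lor M (cbit a))))
            (cbit c)
      then
        (match chk E bd k false (Nat.lor M (cbit a)) with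
          | .ok z _ =>
            bif Nat.beq (Nat.land z (cbit c)) 0
            then .ok (Nat.lor (Nat.lor z (copyMask o t)) (cbit a)) 0 else .fail
          | .fail => .fail)
      else .fail
  | .q a d alts, false, M =>
      bif Nat.ble a 1023 && Nat.beq (Nat.land M (cbit a)) 0 then
        (match chk E bd d false (Nat.lor M (cbit a)) with
          | .ok zd _ =>
            (match chk E bd alts true (Nat.lor M (cbit a)) with
              | .ok u i =>
                bif Nat.beq (Nat.land (Nat.land zd i) (Nat.lor M (cbit a))) (Nat.land zd i)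
                then .ok (Nat.lor (Nat.lor zd u) (cbit a)) 0 else .fail
              | .fail => .fail)
          | .fail => .fail)
      else .fail
  | .nil, true, _ => .ok 0 fullMask
  | .alt t rest, true, M =>
      (match chk E bd t false M with
        | .ok z _ =>
          (match chk E bd rest true M with
            | .ok u i => .ok (Nat.lor z u) (Nat.land z i)
            | .fail => .fail)
        | .fail => .fail)
  | .sref i, false, M =>
      bif Nat.blt i bd then
        (match Tr.get E i with
          | .val m z => bif Nat.beq M m then .ok z 0 else .fail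
          | _ => .fail)
      else .fail
  | _, _, _ => .fail

/-- The tree `t` proves the lemma number `j` of the store `E`, using only earlier lemmas. -/
def chkLemma (E : Tr) (j : ℕ) (t : PT) : Bool :=
  match Tr.get E j with
  | .val m z =>
    (match chk E j t false m with
      | .ok z' _ => Nat.beq z' z
      | .fail => false)
  | _ => false

/-- The trees `ts` prove the lemmas number `j`, `j + 1`, ... of the store `E`. -/
def chkAll (E : Tr) : ℕ → List PT → Bool
  | _, [] => true
  | j, t :: ts => chkLemma E j t && chkAll E (j + 1) ts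

/-- The intersection of the zones of those lemmas with indices in the list that are stated for
the Maker mask `M0` and have index below `n`. -/
def rootInter (E : Tr) (n M0 : ℕ) : List ℕ → ℕ
  | [] => fullMask
  | j :: js =>
    (match (bif Nat.blt j n then Tr.get E j else .leaf) with
      | .val m z => bif Nat.beq m M0 then Nat.land z (rootInter E n M0 js) else rootInter E n M0 js
      | _ => rootInter E n M0 js)

/-- Root check: the lemma `j0` is stated for `M0`, and the intersection of its zone with the
zones of the lemmas in `js` stated for `M0` lies inside `M0` and the excluded mask `X`. -/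
def chkRoot (E : Tr) (n M0 X : ℕ) (j0 : ℕ) (js : List ℕ) : Bool :=
  Nat.blt j0 n &&
  (match Tr.get E j0 with
    | .val m z =>
      Nat.beq m M0 &&
        Nat.beq (Nat.land (Nat.land z (rootInter E n M0 js)) (Nat.lor M0 X))
          (Nat.land z (rootInter E n M0 js))
    | _ => false)

end Vale.Agent.Lib.P062
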