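import Vale.Agent.Lib.P062.Cert.Defs

namespace Vale.Agent.Lib.P062


/-- The window of cells that masks can describe. -/
noncomputable def win : Finset Cell := Finset.Icc (-16 : ℤ) 15 ×ˢ Finset.Icc (-16 : ℤ) 15

/-- The index of a cell of the window. -/
def enc (c : Cell) : ℕ := (c.1 + 16).toNat * 32 + (c.2 + 16).toNat

/-- The cell with a given index. -/
def dec (i : ℕ) : Cell := (((i / 32 : ℕ) : ℤ) - 16, ((i % 32 : ℕ) : ℤ) - 16)

/-- The set of cells described by a mask. -/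
noncomputable def S (m : ℕ) : Finset Cell := win.filter (fun c => m.testBit (enc c) = true)

theorem mem_win {c : Cell} : c ∈ win ↔ -16 ≤ c.1 ∧ c.1 ≤ 15 ∧ -16 ≤ c.2 ∧ c.2 ≤ 15 := by
  simp only [win, Finset.mem_product, Finset.mem_Icc]; tauto

theorem mem_S {m : ℕ} {c : Cell} : c ∈ S m ↔ c ∈ win ∧ m.testBit (enc c) = true := by
  simp [S]

theorem enc_lt {c : Cell} (hc : c ∈ win) : enc c < 1024 := by
  rw [mem_win] at hc; unfold enc; omega

theorem dec_enc {c : Cell} (hc : c ∈ win) : dec (enc c) = c := by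
  rw [mem_win] at hc
  obtain ⟨x, y⟩ := c
  simp only [dec, enc, Prod.mk.injEq]
  constructor <;> omega

theorem enc_dec {i : ℕ} (hi : i < 1024) : enc (dec i) = i := by
  simp only [dec, enc]; omega

theorem dec_mem_win {i : ℕ} (hi : i < 1024) : dec i ∈ win := by
  rw [mem_win]; simp only [dec]; omega

theorem S_lor (m n : ℕ) : S (Nat.lor m n) = S m ∪ S n := by
  ext c
  have : Nat.lor m n = m ||| n := rfl
  simp only [mem_S, Finset.mem_union, this, Nat.testBit_lor, Bool.or_eq_true]; tauto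

theorem S_land (m n : ℕ) : S (Nat.land m n) = S m ∩ S n := by
  ext c
  have : Nat.land m n = m &&& n := rfl
  simp only [mem_S, Finset.mem_inter, this, Nat.testBit_land, Bool.and_eq_true]; tauto

theorem S_xor_land (m n : ℕ) : S (Nat.xor m (Nat.land m n)) = S m \ S n := by
  ext c
  have h1 : Nat.land m n = m &&& n := rfl
  have h2 : Nat.xor m (m &&& n) = m ^^^ (m &&& n) := rfl
  simp only [mem_S, Finset.mem_sdiff, h1, h2, Nat.testBit_xor, Nat.testBit_land]
  cases m.testBit (enc c) <;> cases n.testBit (enc c) <;> simp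

theorem S_zero : S 0 = ∅ := by
  ext c; simp [mem_S]

theorem S_cbit {i : ℕ} (hi : i < 1024) : S (cbit i) = {dec i} := by
  ext c
  have h1 : cbit i = 2 ^ i := by
    show 1 <<< i = 2 ^ i
    exact Nat.one_shiftLeft i
  simp only [mem_S, h1, Nat.testBit_two_pow, decide_eq_true_eq, Finset.mem_singleton]
  constructor
  · rintro ⟨hc, rfl⟩; exact (dec_enc hc).symm
  · rintro rfl; exact ⟨dec_mem_win hi, (enc_dec hi).symm⟩

theorem S_fullMask : S fullMask = win := by
  ext c
  simp only [mem_S, fullMask, Nat.testBit_two_pow_sub_one, decide_eq_true_eq]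
  constructor
  · exact fun h => h.1
  · exact fun h => ⟨h, enc_lt h⟩

theorem S_subset_win (m : ℕ) : S m ⊆ win := Finset.filter_subset _ _

theorem not_mem_S_of_land {M a : ℕ} (ha : a < 1024) (h : Nat.land M (cbit a) = 0) : dec a ∉ S M := by
  intro hm
  have : dec a ∈ S (Nat.land M (cbit a)) := by
    rw [S_land, S_cbit ha]; simp [hm]
  rw [h, S_zero] at this
  exact absurd this (Finset.notMem_empty _)

theorem S_subset_of_land {C X : ℕ} (h : Nat.land C X = C) : S C ⊆ S X := by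
  rw [← h, S_land]; exact Finset.inter_subset_right


theorem testBit_copyMask (o t j : ℕ) :
    (copyMask o t).testBit j = (decide (t ≤ j) && (baseMask o).testBit (j - t)) := by
  show (baseMask o <<< t).testBit j = _
  rw [Nat.testBit_shiftLeft]

theorem baseMask_testBit_0 (j : ℕ) : (baseMask 0).testBit j = true ↔ j = 0 ∨ j = 32 ∨ j = 64 ∨ j = 96 ∨ j = 97 ∨ j = 129 := by
  by_cases hj : j < 130
  · have h : ∀ j < 130, ((baseMask 0).testBit j = true ↔ j = 0 ∨ j = 32 ∨ j = 64 ∨ j = 96 ∨ j = 97 ∨ j = 129) := by decide +kernel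
    exact h j hj
  · have h1 : baseMask 0 < 2 ^ 130 := by decide +kernel
    have h2 : (baseMask 0).testBit j = false :=
      Nat.testBit_lt_two_pow (lt_of_lt_of_le h1 (Nat.pow_le_pow_right (by norm_num) (by omega)))
    rw [h2]
    constructor
    · intro h; exact absurd h (by simp)
    · intro h; omega

theorem S_copyMask_0 (t : ℕ) (h1 : t % 32 ≤ 30) (h2 : t / 32 ≤ 27) :
    S (copyMask 0 t) = snaky.image (fun p => (dec t + (0, 0)) + signedPerm false 1 1 p) := by
  ext ⟨x, y⟩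
  simp only [mem_S, testBit_copyMask, Bool.and_eq_true, decide_eq_true_eq, baseMask_testBit_0,
    snaky, Finset.image_insert, Finset.image_singleton, Finset.mem_insert, Finset.mem_singleton,
    signedPerm, dec, enc, mem_win, Prod.mk_add_mk, Prod.mk.injEq, Bool.false_eq_true, if_false,
    if_true]
  constructor
  · rintro ⟨⟨hx1, hx2, hy1, hy2⟩, hle, h | h | h | h | h | h⟩
    · exact Or.inl (by omega)
    · exact Or.inr (Or.inl (by omega))
    · exact Or.inr (Or.inr (Or.inl (by omega)))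
    · exact Or.inr (Or.inr (Or.inr (Or.inl (by omega))))
    · exact Or.inr (Or.inr (Or.inr (Or.inr (Or.inl (by omega)))))
    · exact Or.inr (Or.inr (Or.inr (Or.inr (Or.inr (by omega)))))
  · rintro (⟨rfl, rfl⟩ | ⟨rfl, rfl⟩ | ⟨rfl, rfl⟩ | ⟨rfl, rfl⟩ | ⟨rfl, rfl⟩ | ⟨rfl, rfl⟩)
    · exact ⟨by omega, by omega, Or.inl (by omega)⟩
    · exact ⟨by omega, by omega, Or.inr (Or.inl (by omega))⟩
    · exact ⟨by omega, by omega, Or.inr (Or.inr (Or.inl (by omega)))⟩
    · exact ⟨by omega, by omega, Or.inr (Or.inr (Or.inr (Or.inl (by omega))))⟩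
    · exact ⟨by omega, by omega, Or.inr (Or.inr (Or.inr (Or.inr (Or.inl (by omega)))))⟩
    · exact ⟨by omega, by omega, Or.inr (Or.inr (Or.inr (Or.inr (Or.inr (by omega)))))⟩

theorem baseMask_testBit_1 (j : ℕ) : (baseMask 1).testBit j = true ↔ j = 128 ∨ j = 96 ∨ j = 64 ∨ j = 32 ∨ j = 33 ∨ j = 1 := by
  by_cases hj : j < 130
  · have h : ∀ j < 130, ((baseMask 1).testBit j = true ↔ j = 128 ∨ j = 96 ∨ j = 64 ∨ j = 32 ∨ j = 33 ∨ j = 1) := by decide +kernel
    exact h j hj
  · have h1 : baseMask 1 < 2 ^ 130 := by decide +kernel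
    have h2 : (baseMask 1).testBit j = false :=
      Nat.testBit_lt_two_pow (lt_of_lt_of_le h1 (Nat.pow_le_pow_right (by norm_num) (by omega)))
    rw [h2]
    constructor
    · intro h; exact absurd h (by simp)
    · intro h; omega

theorem S_copyMask_1 (t : ℕ) (h1 : t % 32 ≤ 30) (h2 : t / 32 ≤ 27) :
    S (copyMask 1 t) = snaky.image (fun p => (dec t + (4, 0)) + signedPerm false (-1) 1 p) := by
  ext ⟨x, y⟩
  simp only [mem_S, testBit_copyMask, Bool.and_eq_true, decide_eq_true_eq, baseMask_testBit_1,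
    snaky, Finset.image_insert, Finset.image_singleton, Finset.mem_insert, Finset.mem_singleton,
    signedPerm, dec, enc, mem_win, Prod.mk_add_mk, Prod.mk.injEq, Bool.false_eq_true, if_false,
    if_true]
  constructor
  · rintro ⟨⟨hx1, hx2, hy1, hy2⟩, hle, h | h | h | h | h | h⟩
    · exact Or.inl (by omega)
    · exact Or.inr (Or.inl (by omega))
    · exact Or.inr (Or.inr (Or.inl (by omega)))
    · exact Or.inr (Or.inr (Or.inr (Or.inl (by omega))))
    · exact Or.inr (Or.inr (Or.inr (Or.inr (Or.inl (by omega)))))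
    · exact Or.inr (Or.inr (Or.inr (Or.inr (Or.inr (by omega)))))
  · rintro (⟨rfl, rfl⟩ | ⟨rfl, rfl⟩ | ⟨rfl, rfl⟩ | ⟨rfl, rfl⟩ | ⟨rfl, rfl⟩ | ⟨rfl, rfl⟩)
    · exact ⟨by omega, by omega, Or.inl (by omega)⟩
    · exact ⟨by omega, by omega, Or.inr (Or.inl (by omega))⟩
    · exact ⟨by omega, by omega, Or.inr (Or.inr (Or.inl (by omega)))⟩
    · exact ⟨by omega, by omega, Or.inr (Or.inr (Or.inr (Or.inl (by omega))))⟩
    · exact ⟨by omega, by omega, Or.inr (Or.inr (Or.inr (Or.inr (Or.inl (by omega)))))⟩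
    · exact ⟨by omega, by omega, Or.inr (Or.inr (Or.inr (Or.inr (Or.inr (by omega)))))⟩

theorem baseMask_testBit_2 (j : ℕ) : (baseMask 2).testBit j = true ↔ j = 1 ∨ j = 33 ∨ j = 65 ∨ j = 97 ∨ j = 96 ∨ j = 128 := by
  by_cases hj : j < 130
  · have h : ∀ j < 130, ((baseMask 2).testBit j = true ↔ j = 1 ∨ j = 33 ∨ j = 65 ∨ j = 97 ∨ j = 96 ∨ j = 128) := by decide +kernel
    exact h j hj
  · have h1 : baseMask 2 < 2 ^ 130 := by decide +kernel
    have h2 : (baseMask 2).testBit j = false :=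
      Nat.testBit_lt_two_pow (lt_of_lt_of_le h1 (Nat.pow_le_pow_right (by norm_num) (by omega)))
    rw [h2]
    constructor
    · intro h; exact absurd h (by simp)
    · intro h; omega

theorem S_copyMask_2 (t : ℕ) (h1 : t % 32 ≤ 30) (h2 : t / 32 ≤ 27) :
    S (copyMask 2 t) = snaky.image (fun p => (dec t + (0, 1)) + signedPerm false 1 (-1) p) := by
  ext ⟨x, y⟩
  simp only [mem_S, testBit_copyMask, Bool.and_eq_true, decide_eq_true_eq, baseMask_testBit_2,
    snaky, Finset.image_insert, Finset.image_singleton, Finset.mem_insert, Finset.mem_singleton,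
    signedPerm, dec, enc, mem_win, Prod.mk_add_mk, Prod.mk.injEq, Bool.false_eq_true, if_false,
    if_true]
  constructor
  · rintro ⟨⟨hx1, hx2, hy1, hy2⟩, hle, h | h | h | h | h | h⟩
    · exact Or.inl (by omega)
    · exact Or.inr (Or.inl (by omega))
    · exact Or.inr (Or.inr (Or.inl (by omega)))
    · exact Or.inr (Or.inr (Or.inr (Or.inl (by omega))))
    · exact Or.inr (Or.inr (Or.inr (Or.inr (Or.inl (by omega)))))
    · exact Or.inr (Or.inr (Or.inr (Or.inr (Or.inr (by omega)))))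
  · rintro (⟨rfl, rfl⟩ | ⟨rfl, rfl⟩ | ⟨rfl, rfl⟩ | ⟨rfl, rfl⟩ | ⟨rfl, rfl⟩ | ⟨rfl, rfl⟩)
    · exact ⟨by omega, by omega, Or.inl (by omega)⟩
    · exact ⟨by omega, by omega, Or.inr (Or.inl (by omega))⟩
    · exact ⟨by omega, by omega, Or.inr (Or.inr (Or.inl (by omega)))⟩
    · exact ⟨by omega, by omega, Or.inr (Or.inr (Or.inr (Or.inl (by omega))))⟩
    · exact ⟨by omega, by omega, Or.inr (Or.inr (Or.inr (Or.inr (Or.inl (by omega)))))⟩
    · exact ⟨by omega, by omega, Or.inr (Or.inr (Or.inr (Or.inr (Or.inr (by omega)))))⟩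

theorem baseMask_testBit_3 (j : ℕ) : (baseMask 3).testBit j = true ↔ j = 129 ∨ j = 97 ∨ j = 65 ∨ j = 33 ∨ j = 32 ∨ j = 0 := by
  by_cases hj : j < 130
  · have h : ∀ j < 130, ((baseMask 3).testBit j = true ↔ j = 129 ∨ j = 97 ∨ j = 65 ∨ j = 33 ∨ j = 32 ∨ j = 0) := by decide +kernel
    exact h j hj
  · have h1 : baseMask 3 < 2 ^ 130 := by decide +kernel
    have h2 : (baseMask 3).testBit j = false :=
      Nat.testBit_lt_two_pow (lt_of_lt_of_le h1 (Nat.pow_le_pow_right (by norm_num) (by omega)))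
    rw [h2]
    constructor
    · intro h; exact absurd h (by simp)
    · intro h; omega

theorem S_copyMask_3 (t : ℕ) (h1 : t % 32 ≤ 30) (h2 : t / 32 ≤ 27) :
    S (copyMask 3 t) = snaky.image (fun p => (dec t + (4, 1)) + signedPerm false (-1) (-1) p) := by
  ext ⟨x, y⟩
  simp only [mem_S, testBit_copyMask, Bool.and_eq_true, decide_eq_true_eq, baseMask_testBit_3,
    snaky, Finset.image_insert, Finset.image_singleton, Finset.mem_insert, Finset.mem_singleton,
    signedPerm, dec, enc, mem_win, Prod.mk_add_mk, Prod.mk.injEq, Bool.false_eq_true, if_false,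
    if_true]
  constructor
  · rintro ⟨⟨hx1, hx2, hy1, hy2⟩, hle, h | h | h | h | h | h⟩
    · exact Or.inl (by omega)
    · exact Or.inr (Or.inl (by omega))
    · exact Or.inr (Or.inr (Or.inl (by omega)))
    · exact Or.inr (Or.inr (Or.inr (Or.inl (by omega))))
    · exact Or.inr (Or.inr (Or.inr (Or.inr (Or.inl (by omega)))))
    · exact Or.inr (Or.inr (Or.inr (Or.inr (Or.inr (by omega)))))
  · rintro (⟨rfl, rfl⟩ | ⟨rfl, rfl⟩ | ⟨rfl, rfl⟩ | ⟨rfl, rfl⟩ | ⟨rfl, rfl⟩ | ⟨rfl, rfl⟩)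
    · exact ⟨by omega, by omega, Or.inl (by omega)⟩
    · exact ⟨by omega, by omega, Or.inr (Or.inl (by omega))⟩
    · exact ⟨by omega, by omega, Or.inr (Or.inr (Or.inl (by omega)))⟩
    · exact ⟨by omega, by omega, Or.inr (Or.inr (Or.inr (Or.inl (by omega))))⟩
    · exact ⟨by omega, by omega, Or.inr (Or.inr (Or.inr (Or.inr (Or.inl (by omega)))))⟩
    · exact ⟨by omega, by omega, Or.inr (Or.inr (Or.inr (Or.inr (Or.inr (by omega)))))⟩

theorem baseMask_testBit_4 (j : ℕ) : (baseMask 4).testBit j = true ↔ j = 0 ∨ j = 1 ∨ j = 2 ∨ j = 3 ∨ j = 35 ∨ j = 36 := by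
  by_cases hj : j < 130
  · have h : ∀ j < 130, ((baseMask 4).testBit j = true ↔ j = 0 ∨ j = 1 ∨ j = 2 ∨ j = 3 ∨ j = 35 ∨ j = 36) := by decide +kernel
    exact h j hj
  · have h1 : baseMask 4 < 2 ^ 130 := by decide +kernel
    have h2 : (baseMask 4).testBit j = false :=
      Nat.testBit_lt_two_pow (lt_of_lt_of_le h1 (Nat.pow_le_pow_right (by norm_num) (by omega)))
    rw [h2]
    constructor
    · intro h; exact absurd h (by simp)
    · intro h; omega

theorem S_copyMask_4 (t : ℕ) (h1 : t % 32 ≤ 27) (h2 : t / 32 ≤ 30) :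
    S (copyMask 4 t) = snaky.image (fun p => (dec t + (0, 0)) + signedPerm true 1 1 p) := by
  ext ⟨x, y⟩
  simp only [mem_S, testBit_copyMask, Bool.and_eq_true, decide_eq_true_eq, baseMask_testBit_4,
    snaky, Finset.image_insert, Finset.image_singleton, Finset.mem_insert, Finset.mem_singleton,
    signedPerm, dec, enc, mem_win, Prod.mk_add_mk, Prod.mk.injEq, Bool.false_eq_true, if_false,
    if_true]
  constructor
  · rintro ⟨⟨hx1, hx2, hy1, hy2⟩, hle, h | h | h | h | h | h⟩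
    · exact Or.inl (by omega)
    · exact Or.inr (Or.inl (by omega))
    · exact Or.inr (Or.inr (Or.inl (by omega)))
    · exact Or.inr (Or.inr (Or.inr (Or.inl (by omega))))
    · exact Or.inr (Or.inr (Or.inr (Or.inr (Or.inl (by omega)))))
    · exact Or.inr (Or.inr (Or.inr (Or.inr (Or.inr (by omega)))))
  · rintro (⟨rfl, rfl⟩ | ⟨rfl, rfl⟩ | ⟨rfl, rfl⟩ | ⟨rfl, rfl⟩ | ⟨rfl, rfl⟩ | ⟨rfl, rfl⟩)
    · exact ⟨by omega, by omega, Or.inl (by omega)⟩
    · exact ⟨by omega, by omega, Or.inr (Or.inl (by omega))⟩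
    · exact ⟨by omega, by omega, Or.inr (Or.inr (Or.inl (by omega)))⟩
    · exact ⟨by omega, by omega, Or.inr (Or.inr (Or.inr (Or.inl (by omega))))⟩
    · exact ⟨by omega, by omega, Or.inr (Or.inr (Or.inr (Or.inr (Or.inl (by omega)))))⟩
    · exact ⟨by omega, by omega, Or.inr (Or.inr (Or.inr (Or.inr (Or.inr (by omega)))))⟩

theorem baseMask_testBit_5 (j : ℕ) : (baseMask 5).testBit j = true ↔ j = 32 ∨ j = 33 ∨ j = 34 ∨ j = 35 ∨ j = 3 ∨ j = 4 := by
  by_cases hj : j < 130
  · have h : ∀ j < 130, ((baseMask 5).testBit j = true ↔ j = 32 ∨ j = 33 ∨ j = 34 ∨ j = 35 ∨ j = 3 ∨ j = 4) := by decide +kernel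
    exact h j hj
  · have h1 : baseMask 5 < 2 ^ 130 := by decide +kernel
    have h2 : (baseMask 5).testBit j = false :=
      Nat.testBit_lt_two_pow (lt_of_lt_of_le h1 (Nat.pow_le_pow_right (by norm_num) (by omega)))
    rw [h2]
    constructor
    · intro h; exact absurd h (by simp)
    · intro h; omega

theorem S_copyMask_5 (t : ℕ) (h1 : t % 32 ≤ 27) (h2 : t / 32 ≤ 30) :
    S (copyMask 5 t) = snaky.image (fun p => (dec t + (1, 0)) + signedPerm true (-1) 1 p) := by
  ext ⟨x, y⟩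
  simp only [mem_S, testBit_copyMask, Bool.and_eq_true, decide_eq_true_eq, baseMask_testBit_5,
    snaky, Finset.image_insert, Finset.image_singleton, Finset.mem_insert, Finset.mem_singleton,
    signedPerm, dec, enc, mem_win, Prod.mk_add_mk, Prod.mk.injEq, Bool.false_eq_true, if_false,
    if_true]
  constructor
  · rintro ⟨⟨hx1, hx2, hy1, hy2⟩, hle, h | h | h | h | h | h⟩
    · exact Or.inl (by omega)
    · exact Or.inr (Or.inl (by omega))
    · exact Or.inr (Or.inr (Or.inl (by omega)))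
    · exact Or.inr (Or.inr (Or.inr (Or.inl (by omega))))
    · exact Or.inr (Or.inr (Or.inr (Or.inr (Or.inl (by omega)))))
    · exact Or.inr (Or.inr (Or.inr (Or.inr (Or.inr (by omega)))))
  · rintro (⟨rfl, rfl⟩ | ⟨rfl, rfl⟩ | ⟨rfl, rfl⟩ | ⟨rfl, rfl⟩ | ⟨rfl, rfl⟩ | ⟨rfl, rfl⟩)
    · exact ⟨by omega, by omega, Or.inl (by omega)⟩
    · exact ⟨by omega, by omega, Or.inr (Or.inl (by omega))⟩
    · exact ⟨by omega, by omega, Or.inr (Or.inr (Or.inl (by omega)))⟩
    · exact ⟨by omega, by omega, Or.inr (Or.inr (Or.inr (Or.inl (by omega))))⟩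
    · exact ⟨by omega, by omega, Or.inr (Or.inr (Or.inr (Or.inr (Or.inl (by omega)))))⟩
    · exact ⟨by omega, by omega, Or.inr (Or.inr (Or.inr (Or.inr (Or.inr (by omega)))))⟩

theorem baseMask_testBit_6 (j : ℕ) : (baseMask 6).testBit j = true ↔ j = 4 ∨ j = 3 ∨ j = 2 ∨ j = 1 ∨ j = 33 ∨ j = 32 := by
  by_cases hj : j < 130
  · have h : ∀ j < 130, ((baseMask 6).testBit j = true ↔ j = 4 ∨ j = 3 ∨ j = 2 ∨ j = 1 ∨ j = 33 ∨ j = 32) := by decide +kernel
    exact h j hj
  · have h1 : baseMask 6 < 2 ^ 130 := by decide +kernel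
    have h2 : (baseMask 6).testBit j = false :=
      Nat.testBit_lt_two_pow (lt_of_lt_of_le h1 (Nat.pow_le_pow_right (by norm_num) (by omega)))
    rw [h2]
    constructor
    · intro h; exact absurd h (by simp)
    · intro h; omega

theorem S_copyMask_6 (t : ℕ) (h1 : t % 32 ≤ 27) (h2 : t / 32 ≤ 30) :
    S (copyMask 6 t) = snaky.image (fun p => (dec t + (0, 4)) + signedPerm true 1 (-1) p) := by
  ext ⟨x, y⟩
  simp only [mem_S, testBit_copyMask, Bool.and_eq_true, decide_eq_true_eq, baseMask_testBit_6,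
    snaky, Finset.image_insert, Finset.image_singleton, Finset.mem_insert, Finset.mem_singleton,
    signedPerm, dec, enc, mem_win, Prod.mk_add_mk, Prod.mk.injEq, Bool.false_eq_true, if_false,
    if_true]
  constructor
  · rintro ⟨⟨hx1, hx2, hy1, hy2⟩, hle, h | h | h | h | h | h⟩
    · exact Or.inl (by omega)
    · exact Or.inr (Or.inl (by omega))
    · exact Or.inr (Or.inr (Or.inl (by omega)))
    · exact Or.inr (Or.inr (Or.inr (Or.inl (by omega))))
    · exact Or.inr (Or.inr (Or.inr (Or.inr (Or.inl (by omega)))))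
    · exact Or.inr (Or.inr (Or.inr (Or.inr (Or.inr (by omega)))))
  · rintro (⟨rfl, rfl⟩ | ⟨rfl, rfl⟩ | ⟨rfl, rfl⟩ | ⟨rfl, rfl⟩ | ⟨rfl, rfl⟩ | ⟨rfl, rfl⟩)
    · exact ⟨by omega, by omega, Or.inl (by omega)⟩
    · exact ⟨by omega, by omega, Or.inr (Or.inl (by omega))⟩
    · exact ⟨by omega, by omega, Or.inr (Or.inr (Or.inl (by omega)))⟩
    · exact ⟨by omega, by omega, Or.inr (Or.inr (Or.inr (Or.inl (by omega))))⟩
    · exact ⟨by omega, by omega, Or.inr (Or.inr (Or.inr (Or.inr (Or.inl (by omega)))))⟩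
    · exact ⟨by omega, by omega, Or.inr (Or.inr (Or.inr (Or.inr (Or.inr (by omega)))))⟩

theorem baseMask_testBit_7 (j : ℕ) : (baseMask 7).testBit j = true ↔ j = 36 ∨ j = 35 ∨ j = 34 ∨ j = 33 ∨ j = 1 ∨ j = 0 := by
  by_cases hj : j < 130
  · have h : ∀ j < 130, ((baseMask 7).testBit j = true ↔ j = 36 ∨ j = 35 ∨ j = 34 ∨ j = 33 ∨ j = 1 ∨ j = 0) := by decide +kernel
    exact h j hj
  · have h1 : baseMask 7 < 2 ^ 130 := by decide +kernel
    have h2 : (baseMask 7).testBit j = false :=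
      Nat.testBit_lt_two_pow (lt_of_lt_of_le h1 (Nat.pow_le_pow_right (by norm_num) (by omega)))
    rw [h2]
    constructor
    · intro h; exact absurd h (by simp)
    · intro h; omega

theorem S_copyMask_7 (t : ℕ) (h1 : t % 32 ≤ 27) (h2 : t / 32 ≤ 30) :
    S (copyMask 7 t) = snaky.image (fun p => (dec t + (1, 4)) + signedPerm true (-1) (-1) p) := by
  ext ⟨x, y⟩
  simp only [mem_S, testBit_copyMask, Bool.and_eq_true, decide_eq_true_eq, baseMask_testBit_7,
    snaky, Finset.image_insert, Finset.image_singleton, Finset.mem_insert, Finset.mem_singleton,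
    signedPerm, dec, enc, mem_win, Prod.mk_add_mk, Prod.mk.injEq, Bool.false_eq_true, if_false,
    if_true]
  constructor
  · rintro ⟨⟨hx1, hx2, hy1, hy2⟩, hle, h | h | h | h | h | h⟩
    · exact Or.inl (by omega)
    · exact Or.inr (Or.inl (by omega))
    · exact Or.inr (Or.inr (Or.inl (by omega)))
    · exact Or.inr (Or.inr (Or.inr (Or.inl (by omega))))
    · exact Or.inr (Or.inr (Or.inr (Or.inr (Or.inl (by omega)))))
    · exact Or.inr (Or.inr (Or.inr (Or.inr (Or.inr (by omega)))))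
  · rintro (⟨rfl, rfl⟩ | ⟨rfl, rfl⟩ | ⟨rfl, rfl⟩ | ⟨rfl, rfl⟩ | ⟨rfl, rfl⟩ | ⟨rfl, rfl⟩)
    · exact ⟨by omega, by omega, Or.inl (by omega)⟩
    · exact ⟨by omega, by omega, Or.inr (Or.inl (by omega))⟩
    · exact ⟨by omega, by omega, Or.inr (Or.inr (Or.inl (by omega)))⟩
    · exact ⟨by omega, by omega, Or.inr (Or.inr (Or.inr (Or.inl (by omega))))⟩
    · exact ⟨by omega, by omega, Or.inr (Or.inr (Or.inr (Or.inr (Or.inl (by omega)))))⟩
    · exact ⟨by omega, by omega, Or.inr (Or.inr (Or.inr (Or.inr (Or.inr (by omega)))))⟩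

theorem isSnakyCopy_copyMask {o t : ℕ} (h : copyOK o t = true) : IsSnakyCopy (S (copyMask o t)) := by
  unfold copyOK at h
  by_cases ho : o ≤ 3
  · have hb : Nat.ble o 3 = true := by simpa using ho
    rw [hb] at h
    simp only [cond_true, Bool.and_eq_true, Nat.ble_eq] at h
    obtain ⟨h1, h2⟩ := h
    have h2' : t / 32 ≤ 27 := h2
    have h1' : t % 32 ≤ 30 := h1
    have : o = 0 ∨ o = 1 ∨ o = 2 ∨ o = 3 := by omega
    rcases this with rfl | rfl | rfl | rfl
    · exact ⟨false, 1, 1, _, Or.inl rfl, Or.inl rfl, S_copyMask_0 t h1' h2'⟩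
    · exact ⟨false, -1, 1, _, Or.inr rfl, Or.inl rfl, S_copyMask_1 t h1' h2'⟩
    · exact ⟨false, 1, -1, _, Or.inl rfl, Or.inr rfl, S_copyMask_2 t h1' h2'⟩
    · exact ⟨false, -1, -1, _, Or.inr rfl, Or.inr rfl, S_copyMask_3 t h1' h2'⟩
  · have hb : Nat.ble o 3 = false := by
      rw [Bool.eq_false_iff]; intro h'; exact ho (Nat.le_of_ble_eq_true h')
    rw [hb] at h
    simp only [cond_false, Bool.and_eq_true, Nat.ble_eq] at h
    obtain ⟨⟨h0, h1⟩, h2⟩ := h
    have h2' : t / 32 ≤ 30 := h2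
    have h1' : t % 32 ≤ 27 := h1
    have : o = 4 ∨ o = 5 ∨ o = 6 ∨ o = 7 := by omega
    rcases this with rfl | rfl | rfl | rfl
    · exact ⟨true, 1, 1, _, Or.inl rfl, Or.inl rfl, S_copyMask_4 t h1' h2'⟩
    · exact ⟨true, -1, 1, _, Or.inr rfl, Or.inl rfl, S_copyMask_5 t h1' h2'⟩
    · exact ⟨true, 1, -1, _, Or.inl rfl, Or.inr rfl, S_copyMask_6 t h1' h2'⟩
    · exact ⟨true, -1, -1, _, Or.inr rfl, Or.inr rfl, S_copyMask_7 t h1' h2'⟩

end Vale.Agent.Lib.P062
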