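import Vale.Agent.Lib.P062.Cert.Mask

/-!
# Soundness of the proof-tree checker
-/

namespace Vale.Agent.Lib.P062

/-- Maker, to move and owning the cells of `M`, wins against every set of Breaker cells that is
disjoint from `Z`. -/
def W0 (M Z : Finset Cell) : Prop := ∀ B : Finset Cell, Disjoint B Z → MW M B

theorem W0.w1 {M Z C : Finset Cell} {a : Cell} (hC : IsSnakyCopy C) (hsub : C ⊆ insert a M)
    (haM : a ∉ M) (haZ : a ∈ Z) : W0 M Z := by
  intro B hB
  have haB : a ∉ B := fun h => Finset.disjoint_left.mp hB h haZ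
  exact MW.step M B a haM haB (fun b _ _ _ => MW.won _ _ C hC hsub)

theorem W0.w2 {M Z C1 C2 : Finset Cell} {a c1 c2 : Cell} (h1 : IsSnakyCopy C1)
    (h2 : IsSnakyCopy C2) (hs1 : C1 ⊆ insert c1 (insert a M)) (hs2 : C2 ⊆ insert c2 (insert a M))
    (haM : a ∉ M) (hc1 : c1 ∉ insert a M) (hc2 : c2 ∉ insert a M) (hne : c1 ≠ c2)
    (haZ : a ∈ Z) (hc1Z : c1 ∈ Z) (hc2Z : c2 ∈ Z) : W0 M Z := by
  intro B hB
  have haB : a ∉ B := fun h => Finset.disjoint_left.mp hB h haZ
  have hc1B : c1 ∉ B := fun h => Finset.disjoint_left.mp hB h hc1Z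
  have hc2B : c2 ∉ B := fun h => Finset.disjoint_left.mp hB h hc2Z
  refine MW.step M B a haM haB (fun b _ _ _ => ?_)
  by_cases hb : b = c1
  · refine MW.step _ _ c2 hc2 ?_ (fun b' _ _ _ => MW.won _ _ C2 h2 hs2)
    rw [Finset.mem_insert, not_or]
    exact ⟨fun h => hne (hb ▸ h.symm), hc2B⟩
  · refine MW.step _ _ c1 hc1 ?_ (fun b' _ _ _ => MW.won _ _ C1 h1 hs1)
    rw [Finset.mem_insert, not_or]
    exact ⟨fun h => hb h.symm, hc1B⟩

theorem W0.f {M Z Zt C : Finset Cell} {a c : Cell} (hC : IsSnakyCopy C)
    (hsub : C ⊆ insert c (insert a M)) (haM : a ∉ M) (hc : c ∉ insert a M)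
    (haZ : a ∈ Z) (hcZ : c ∈ Z) (hZt : Zt ⊆ Z) (hcZt : c ∉ Zt) (hk : W0 (insert a M) Zt) :
    W0 M Z := by
  intro B hB
  have haB : a ∉ B := fun h => Finset.disjoint_left.mp hB h haZ
  have hcB : c ∉ B := fun h => Finset.disjoint_left.mp hB h hcZ
  refine MW.step M B a haM haB (fun b _ _ _ => ?_)
  by_cases hb : b = c
  · subst hb
    apply hk
    rw [Finset.disjoint_insert_left]
    exact ⟨hcZt, hB.mono_right hZt⟩
  · refine MW.step _ _ c hc ?_ (fun b' _ _ _ => MW.won _ _ C hC hsub)
    rw [Finset.mem_insert, not_or]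
    exact ⟨fun h => hb h.symm, hcB⟩

theorem W0.q {M Z : Finset Cell} {a : Cell} (haM : a ∉ M) (haZ : a ∈ Z)
    (h : ∀ b : Cell, b ∉ insert a M → ∃ Zj, Zj ⊆ Z ∧ b ∉ Zj ∧ W0 (insert a M) Zj) : W0 M Z := by
  intro B hB
  have haB : a ∉ B := fun h => Finset.disjoint_left.mp hB h haZ
  refine MW.step M B a haM haB (fun b hbM hba _ => ?_)
  obtain ⟨Zj, hsub, hbZ, hW⟩ := h b (by rw [Finset.mem_insert, not_or]; exact ⟨hba, hbM⟩)
  apply hW
  rw [Finset.disjoint_insert_left]
  exact ⟨hbZ, hB.mono_right hsub⟩

/-- The meaning of a stored lemma. -/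
def Tr.Valid : Tr → Prop
  | .val m z => W0 (S m) (S z)
  | _ => True

theorem bif_ok {c : Bool} {x : Res} {z i : ℕ} (h : (bif c then x else Res.fail) = Res.ok z i) :
    c = true ∧ x = Res.ok z i := by
  cases c
  · exact absurd h (by simp)
  · exact ⟨rfl, by simpa using h⟩

theorem S_lor_cbit (M : ℕ) {a : ℕ} (ha : a < 1024) :
    S (Nat.lor M (cbit a)) = insert (dec a) (S M) := by
  rw [S_lor, S_cbit ha, Finset.insert_eq, Finset.union_comm]

theorem dec_injective {c1 c2 : ℕ} (h1 : c1 < 1024) (h2 : c2 < 1024) (h : dec c1 = dec c2) :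
    c1 = c2 := by
  rw [← enc_dec h1, ← enc_dec h2, h]

theorem xor_facts {C M a c : ℕ} (ha : a < 1024) (hc : c < 1024)
    (h : Nat.xor C (Nat.land C (Nat.lor M (cbit a))) = cbit c) :
    S C ⊆ insert (dec c) (insert (dec a) (S M)) ∧ dec c ∉ insert (dec a) (S M) ∧ dec c ∈ S C := by
  have h1 := S_xor_land C (Nat.lor M (cbit a))
  rw [h, S_cbit hc, S_lor_cbit M ha] at h1
  have h2 : dec c ∈ S C \ insert (dec a) (S M) := by rw [← h1]; exact Finset.mem_singleton_self _
  rw [Finset.mem_sdiff] at h2
  refine ⟨?_, h2.2, h2.1⟩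
  intro x hx
  by_cases hx' : x ∈ insert (dec a) (S M)
  · exact Finset.mem_insert_of_mem hx'
  · have : x ∈ S C \ insert (dec a) (S M) := Finset.mem_sdiff.mpr ⟨hx, hx'⟩
    rw [← h1, Finset.mem_singleton] at this
    rw [this]; exact Finset.mem_insert_self _ _

/-- Soundness of the checker, for nodes and for chains of alternatives. -/
theorem chk_sound (E : Tr) (bd : ℕ) (hE : ∀ i, i < bd → (E.get i).Valid) (t : PT) :
    (∀ M z i, chk E bd t false M = .ok z i → W0 (S M) (S z)) ∧
    (∀ M u i, chk E bd t true M = .ok u i →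
      ∀ b ∈ win, b ∉ S i → ∃ z, S z ⊆ S u ∧ b ∉ S z ∧ W0 (S M) (S z)) := by
  induction t with
  | w1 a o t =>
    refine ⟨?_, ?_⟩
    · intro M z i h
      simp only [chk] at h
      obtain ⟨hc, hz⟩ := bif_ok h
      simp only [Bool.and_eq_true, Nat.ble_eq, Nat.beq_eq] at hc
      obtain ⟨⟨⟨hok, ha⟩, hsub⟩, hM⟩ := hc
      injection hz with hz _
      subst hz
      have ha' : a < 1024 := by omega
      refine W0.w1 (a := dec a) (isSnakyCopy_copyMask hok) ?_ (not_mem_S_of_land ha' hM) ?_
      · have h1 := S_subset_of_land hsub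
        rwa [S_lor_cbit M ha'] at h1
      · rw [S_lor_cbit _ ha']; exact Finset.mem_insert_self _ _
    · intro M u i h
      simp [chk] at h
  | w2 a o1 t1 c1 o2 t2 c2 =>
    refine ⟨?_, ?_⟩
    · intro M z i h
      simp only [chk] at h
      obtain ⟨hc, hz⟩ := bif_ok h
      simp only [Bool.and_eq_true, Nat.ble_eq, Nat.beq_eq, Bool.not_eq_true'] at hc
      obtain ⟨⟨⟨⟨⟨⟨⟨⟨hok1, hok2⟩, ha⟩, hc1⟩, hc2⟩, hM⟩, hx1⟩, hx2⟩, hne⟩ := hc
      injection hz with hz _
      subst hz
      have ha' : a < 1024 := by omega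
      have hc1' : c1 < 1024 := by omega
      have hc2' : c2 < 1024 := by omega
      obtain ⟨f1, f2, f3⟩ := xor_facts ha' hc1' hx1
      obtain ⟨g1, g2, g3⟩ := xor_facts ha' hc2' hx2
      have hne' : dec c1 ≠ dec c2 := by
        intro heq
        have := dec_injective hc1' hc2' heq
        subst this
        rw [Nat.beq_refl] at hne
        exact absurd hne (by simp)
      refine W0.w2 (a := dec a) (c1 := dec c1) (c2 := dec c2) (isSnakyCopy_copyMask hok1)
        (isSnakyCopy_copyMask hok2) f1 g1 (not_mem_S_of_land ha' hM) f2 g2 hne' ?_ ?_ ?_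
      · rw [S_lor_cbit _ ha']; exact Finset.mem_insert_self _ _
      · rw [S_lor_cbit _ ha', S_lor]
        exact Finset.mem_insert_of_mem (Finset.mem_union_left _ f3)
      · rw [S_lor_cbit _ ha', S_lor]
        exact Finset.mem_insert_of_mem (Finset.mem_union_right _ g3)
    · intro M u i h
      simp [chk] at h
  | f a o t c k ih =>
    refine ⟨?_, ?_⟩
    · intro M z i h
      simp only [chk] at h
      obtain ⟨hc, hm⟩ := bif_ok h
      simp only [Bool.and_eq_true, Nat.ble_eq, Nat.beq_eq] at hc
      obtain ⟨⟨⟨⟨hok, ha⟩, hc'⟩, hM⟩, hx⟩ := hc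
      have ha' : a < 1024 := by omega
      have hc'' : c < 1024 := by omega
      cases hk : chk E bd k false (Nat.lor M (cbit a)) with
      | fail => rw [hk] at hm; exact absurd hm (by simp)
      | ok zt it =>
        rw [hk] at hm
        obtain ⟨hd, hz⟩ := bif_ok hm
        rw [Nat.beq_eq] at hd
        injection hz with hz _
        subst hz
        have hW := ih.1 _ _ _ hk
        rw [S_lor_cbit M ha'] at hW
        obtain ⟨f1, f2, f3⟩ := xor_facts ha' hc'' hx
        refine W0.f (a := dec a) (c := dec c) (isSnakyCopy_copyMask hok) f1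
          (not_mem_S_of_land ha' hM) f2 ?_ ?_ ?_ (not_mem_S_of_land hc'' hd) hW
        · rw [S_lor_cbit _ ha']; exact Finset.mem_insert_self _ _
        · rw [S_lor_cbit _ ha', S_lor]
          exact Finset.mem_insert_of_mem (Finset.mem_union_right _ f3)
        · rw [S_lor_cbit _ ha', S_lor]
          exact (Finset.subset_union_left).trans (Finset.subset_insert _ _)
    · intro M u i h
      simp [chk] at h
  | q a d alts ihd iha =>
    refine ⟨?_, ?_⟩
    · intro M z i h
      simp only [chk] at h
      obtain ⟨hc, hm⟩ := bif_ok h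
      simp only [Bool.and_eq_true, Nat.ble_eq, Nat.beq_eq] at hc
      obtain ⟨ha, hM⟩ := hc
      have ha' : a < 1024 := by omega
      cases hd : chk E bd d false (Nat.lor M (cbit a)) with
      | fail => rw [hd] at hm; exact absurd hm (by simp)
      | ok zd id =>
        rw [hd] at hm
        cases hal : chk E bd alts true (Nat.lor M (cbit a)) with
        | fail => rw [hal] at hm; exact absurd hm (by simp)
        | ok u ii =>
          rw [hal] at hm
          obtain ⟨hcov, hz⟩ := bif_ok hm
          rw [Nat.beq_eq] at hcov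
          injection hz with hz _
          subst hz
          have hWd := ihd.1 _ _ _ hd
          have hWa := iha.2 _ _ _ hal
          rw [S_lor_cbit M ha'] at hWd hWa
          have hcov' := S_subset_of_land hcov
          rw [S_land, S_lor_cbit M ha'] at hcov'
          refine W0.q (a := dec a) (not_mem_S_of_land ha' hM) ?_ ?_
          · rw [S_lor_cbit _ ha']; exact Finset.mem_insert_self _ _
          · intro b hb
            by_cases hbd : b ∈ S zd
            · by_cases hbi : b ∈ S ii
              · exact absurd (hcov' (Finset.mem_inter.mpr ⟨hbd, hbi⟩)) hb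
              · obtain ⟨z, hz1, hz2, hz3⟩ := hWa b (S_subset_win _ hbd) hbi
                refine ⟨S z, ?_, hz2, hz3⟩
                rw [S_lor_cbit _ ha', S_lor]
                exact (hz1.trans Finset.subset_union_right).trans (Finset.subset_insert _ _)
            · refine ⟨S zd, ?_, hbd, hWd⟩
              rw [S_lor_cbit _ ha', S_lor]
              exact (Finset.subset_union_left).trans (Finset.subset_insert _ _)
    · intro M u i h
      simp [chk] at h
  | nil =>
    refine ⟨?_, ?_⟩
    · intro M z i h
      simp [chk] at h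
    · intro M u i h b hb hbi
      simp only [chk] at h
      injection h with h1 h2
      subst h2
      rw [S_fullMask] at hbi
      exact absurd hb hbi
  | alt t rest iht ihr =>
    refine ⟨?_, ?_⟩
    · intro M z i h
      simp [chk] at h
    · intro M u i h b hb hbi
      simp only [chk] at h
      cases ht : chk E bd t false M with
      | fail => rw [ht] at h; exact absurd h (by simp)
      | ok z it =>
        rw [ht] at h
        cases hr : chk E bd rest true M with
        | fail => rw [hr] at h; exact absurd h (by simp)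
        | ok u' i' =>
          rw [hr] at h
          injection h with h1 h2
          subst h1; subst h2
          rw [S_land, Finset.mem_inter, not_and_or] at hbi
          rcases hbi with hbz | hbi'
          · refine ⟨z, ?_, hbz, iht.1 _ _ _ ht⟩
            rw [S_lor]; exact Finset.subset_union_left
          · obtain ⟨z2, hz1, hz2, hz3⟩ := ihr.2 _ _ _ hr b hb hbi'
            refine ⟨z2, ?_, hz2, hz3⟩
            rw [S_lor]; exact hz1.trans Finset.subset_union_right
  | sref j =>
    refine ⟨?_, ?_⟩
    · intro M z i h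
      simp only [chk] at h
      obtain ⟨hc, hm⟩ := bif_ok h
      rw [Nat.blt_eq] at hc
      have hv := hE j hc
      cases hg : E.get j with
      | leaf => rw [hg] at hm; exact absurd hm (by simp)
      | node l r => rw [hg] at hm; exact absurd hm (by simp)
      | val m z' =>
        rw [hg] at hm hv
        dsimp only at hm
        obtain ⟨hmm, hz⟩ := bif_ok hm
        rw [Nat.beq_eq] at hmm
        injection hz with hz _
        subst hz; subst hmm
        exact hv
    · intro M u i h
      simp [chk] at h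

/-- A tree accepted for lemma `j` proves it, if all earlier lemmas hold. -/
theorem chkLemma_sound (E : Tr) (j : ℕ) (t : PT) (hE : ∀ i, i < j → (E.get i).Valid)
    (h : chkLemma E j t = true) : (E.get j).Valid := by
  unfold chkLemma at h
  cases hg : E.get j with
  | leaf => trivial
  | node l r => trivial
  | val m z =>
    rw [hg] at h
    dsimp only at h
    cases hc : chk E j t false m with
    | fail => rw [hc] at h; exact absurd h (by simp)
    | ok z' i' =>
      rw [hc] at h
      have hz : z' = z := by simpa using h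
      subst hz
      exact (chk_sound E j hE t).1 _ _ _ hc

theorem chkAll_sound (E : Tr) : ∀ (ts : List PT) (j : ℕ), (∀ i, i < j → (E.get i).Valid) →
    chkAll E j ts = true → ∀ i, i < j + ts.length → (E.get i).Valid := by
  intro ts
  induction ts with
  | nil => intro j hE _ i hi; exact hE i (by simpa using hi)
  | cons t ts ih =>
    intro j hE h i hi
    simp only [chkAll, Bool.and_eq_true] at h
    have hj := chkLemma_sound E j t hE h.1
    refine ih (j + 1) ?_ h.2 i (by simp only [List.length_cons] at hi; omega)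
    intro i' hi'
    rcases Nat.lt_succ_iff_lt_or_eq.mp hi' with h' | rfl
    · exact hE i' h'
    · exact hj

theorem rootInter_sound (E : Tr) (n M0 : ℕ) (hE : ∀ i, i < n → (E.get i).Valid) :
    ∀ (js : List ℕ) (b : Cell), b ∈ win → b ∉ S (rootInter E n M0 js) →
      ∃ z, b ∉ S z ∧ W0 (S M0) (S z) := by
  intro js
  induction js with
  | nil =>
    intro b hb hbi
    simp only [rootInter] at hbi
    rw [S_fullMask] at hbi
    exact absurd hb hbi
  | cons j js ih =>
    intro b hb hbi
    simp only [rootInter] at hbi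
    cases hlt : Nat.blt j n with
    | false =>
      rw [hlt] at hbi
      exact ih b hb hbi
    | true =>
      rw [hlt] at hbi
      rw [Nat.blt_eq] at hlt
      have hv := hE j hlt
      simp only [cond_true] at hbi
      cases hg : E.get j with
      | leaf => rw [hg] at hbi; exact ih b hb hbi
      | node l r => rw [hg] at hbi; exact ih b hb hbi
      | val m z =>
        rw [hg] at hbi hv
        dsimp only at hbi
        cases hm : Nat.beq m M0 with
        | false => rw [hm] at hbi; exact ih b hb hbi
        | true =>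
          rw [hm] at hbi
          rw [Nat.beq_eq] at hm
          subst hm
          simp only [cond_true] at hbi
          rw [S_land, Finset.mem_inter, not_and_or] at hbi
          rcases hbi with hbz | hbi'
          · exact ⟨z, hbz, hv⟩
          · exact ih b hb hbi'

theorem chkRoot_sound (E : Tr) (n M0 X j0 : ℕ) (js : List ℕ)
    (hE : ∀ i, i < n → (E.get i).Valid) (h : chkRoot E n M0 X j0 js = true) :
    ∀ b : Cell, b ∉ S (Nat.lor M0 X) → ∃ z, b ∉ S z ∧ W0 (S M0) (S z) := by
  intro b hb
  unfold chkRoot at h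
  rw [Bool.and_eq_true, Nat.blt_eq] at h
  obtain ⟨hlt, h⟩ := h
  have hv := hE j0 hlt
  cases hg : E.get j0 with
  | leaf => rw [hg] at h; exact absurd h (by simp)
  | node l r => rw [hg] at h; exact absurd h (by simp)
  | val m z =>
    rw [hg] at h hv
    dsimp only at h
    simp only [Bool.and_eq_true, Nat.beq_eq] at h
    obtain ⟨hm, hcov⟩ := h
    subst hm
    by_cases hbz : b ∈ S z
    · have hcov' := S_subset_of_land hcov
      rw [S_land] at hcov'
      have hbi : b ∉ S (rootInter E n m js) := fun hbi =>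
        hb (hcov' (Finset.mem_inter.mpr ⟨hbz, hbi⟩))
      exact rootInter_sound E n m hE js b (S_subset_win _ hbz) hbi
    · exact ⟨z, hbz, hv⟩

end Vale.Agent.Lib.P062

namespace Vale.Agent.Lib.P062

/-- The mask of the eight cells adjacent to the origin `(0, 0)` (which has index `528`). -/
def excl8 : ℕ :=
  Nat.lor (cbit 495) (Nat.lor (cbit 496) (Nat.lor (cbit 497) (Nat.lor (cbit 527)
    (Nat.lor (cbit 529) (Nat.lor (cbit 559) (Nat.lor (cbit 560) (cbit 561)))))))

theorem S_origin : S (cbit 528) = {((0 : ℤ), (0 : ℤ))} := by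
  rw [S_cbit (by norm_num)]
  simp [dec]

theorem S_origin_excl8 : S (Nat.lor (cbit 528) excl8) =
    {((0 : ℤ), (0 : ℤ)), (-1, -1), (-1, 0), (-1, 1), (0, -1), (0, 1), (1, -1), (1, 0), (1, 1)} := by
  unfold excl8
  simp only [S_lor, S_cbit (by norm_num : 528 < 1024), S_cbit (by norm_num : 495 < 1024),
    S_cbit (by norm_num : 496 < 1024), S_cbit (by norm_num : 497 < 1024),
    S_cbit (by norm_num : 527 < 1024), S_cbit (by norm_num : 529 < 1024),
    S_cbit (by norm_num : 559 < 1024), S_cbit (by norm_num : 560 < 1024),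
    S_cbit (by norm_num : 561 < 1024)]
  ext x
  simp [dec]
  tauto

/-- If the root check succeeds for a valid store, Maker (owning the origin, to move) wins against
every single Breaker cell that is neither the origin nor adjacent to it. -/
theorem maker_wins_of_root (E : Tr) (n j0 : ℕ) (js : List ℕ)
    (hE : ∀ i, i < n → (E.get i).Valid) (h : chkRoot E n (cbit 528) excl8 j0 js = true)
    (b : Cell) (hb0 : b ≠ (0, 0)) (hadj : ¬(|b.1| ≤ 1 ∧ |b.2| ≤ 1)) :
    MakerWinsFrom {(0, 0)} {b} := by
  have hb : b ∉ S (Nat.lor (cbit 528) excl8) := by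
    rw [S_origin_excl8]
    simp only [Finset.mem_insert, Finset.mem_singleton]
    rintro (rfl | rfl | rfl | rfl | rfl | rfl | rfl | rfl | rfl)
    · exact hb0 rfl
    all_goals exact hadj (by decide)
  obtain ⟨z, hbz, hW⟩ := chkRoot_sound E n (cbit 528) excl8 j0 js hE h b hb
  have hMW := hW {b} (Finset.disjoint_singleton_left.mpr hbz)
  rw [S_origin] at hMW
  exact hMW.makerWinsFrom

end Vale.Agent.Lib.P062
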