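import Vale.Agent.Lib.P062.Cert.Sound

/-!
# Root statements for smaller sets of excluded first replies
-/

namespace Vale.Agent.Lib.P062

/-- The mask of the four cells sharing an edge with the origin `(0, 0)`. -/
def excl4 : ℕ := Nat.lor (cbit 496) (Nat.lor (cbit 527) (Nat.lor (cbit 529) (cbit 560)))

theorem S_origin_excl4 : S (Nat.lor (cbit 528) excl4) =
    {((0 : ℤ), (0 : ℤ)), (-1, 0), (0, -1), (0, 1), (1, 0)} := by
  unfold excl4
  simp only [S_lor, S_cbit (by norm_num : 528 < 1024), S_cbit (by norm_num : 496 < 1024),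
    S_cbit (by norm_num : 527 < 1024), S_cbit (by norm_num : 529 < 1024),
    S_cbit (by norm_num : 560 < 1024)]
  ext x
  simp [dec]
  tauto

/-- If the root check succeeds for a valid store with the four edge-adjacent cells excluded,
Maker (owning the origin, to move) wins against every single Breaker cell that is neither the
origin nor edge-adjacent to it. -/
theorem maker_wins_of_root4 (E : Tr) (n j0 : ℕ) (js : List ℕ)
    (hE : ∀ i, i < n → (E.get i).Valid) (h : chkRoot E n (cbit 528) excl4 j0 js = true)
    (b : Cell) (hb0 : b ≠ (0, 0)) (hadj : ¬(|b.1| + |b.2| = 1)) :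
    MakerWinsFrom {(0, 0)} {b} := by
  have hb : b ∉ S (Nat.lor (cbit 528) excl4) := by
    rw [S_origin_excl4]
    simp only [Finset.mem_insert, Finset.mem_singleton]
    rintro (rfl | rfl | rfl | rfl | rfl)
    · exact hb0 rfl
    all_goals exact hadj (by decide)
  obtain ⟨z, hbz, hW⟩ := chkRoot_sound E n (cbit 528) excl4 j0 js hE h b hb
  have hMW := hW {b} (Finset.disjoint_singleton_left.mpr hbz)
  rw [S_origin] at hMW
  exact hMW.makerWinsFrom

/-- If the root check succeeds for a valid store with no excluded cell, Maker (owning the origin,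
to move) wins against every single Breaker cell. -/
theorem mw_of_root0 (E : Tr) (n j0 : ℕ) (js : List ℕ)
    (hE : ∀ i, i < n → (E.get i).Valid) (h : chkRoot E n (cbit 528) 0 j0 js = true)
    (b : Cell) (hb0 : b ≠ (0, 0)) : MW {(0, 0)} {b} := by
  have hb : b ∉ S (Nat.lor (cbit 528) 0) := by
    rw [S_lor, S_zero, Finset.union_empty, S_origin]
    simpa using hb0
  obtain ⟨z, hbz, hW⟩ := chkRoot_sound E n (cbit 528) 0 j0 js hE h b hb
  have hMW := hW {b} (Finset.disjoint_singleton_left.mpr hbz)
  rw [S_origin] at hMW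
  exact hMW

theorem maker_wins_of_root0 (E : Tr) (n j0 : ℕ) (js : List ℕ)
    (hE : ∀ i, i < n → (E.get i).Valid) (h : chkRoot E n (cbit 528) 0 j0 js = true)
    (b : Cell) (hb0 : b ≠ (0, 0)) : MakerWinsFrom {(0, 0)} {b} :=
  (mw_of_root0 E n j0 js hE h b hb0).makerWinsFrom

/-- If the root check succeeds with no excluded cell, Maker wins the game from the empty board. -/
theorem maker_wins_empty_of_root0 (E : Tr) (n j0 : ℕ) (js : List ℕ)
    (hE : ∀ i, i < n → (E.get i).Valid) (h : chkRoot E n (cbit 528) 0 j0 js = true) :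
    MakerWinsFrom ∅ ∅ := by
  have hstep : MW (∅ : Finset Cell) ∅ := by
    refine MW.step ∅ ∅ (0, 0) (Finset.notMem_empty _) (Finset.notMem_empty _) ?_
    intro b _ hb _
    have := mw_of_root0 E n j0 js hE h b hb
    simpa using this
  exact hstep.makerWinsFrom

end Vale.Agent.Lib.P062
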